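import Vale.Agent.P199.Core

/-!
# P199: algebraic division rings generated by quadratic elements
-/

namespace Vale.Agent.Results.P199.Quadratic

open Submodule Vale.Agent.P199

universe u v

/-- `a` has degree at most two over `k` -/
def IsQuad (k : Type u) {A : Type v} [Field k] [Ring A] [Algebra k A] (a : A) : Prop :=
  ∃ α β : k, a * a = α • a + β • (1 : A)

theorem fin_of_fg {k : Type u} {A : Type v} [Field k] [Ring A] [Algebra k A]
    {B : Subalgebra k A} (h : (Subalgebra.toSubmodule B).FG) : FiniteDimensional k B :=
  Module.Finite.iff_fg.2 h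

theorem two {k : Type u} {A : Type v} [Field k] [Ring A] [Algebra k A]
    (halg : ∀ x : A, IsAlgebraic k x) (a b : A) (ha : IsQuad k a) (hb : IsQuad k b) :
    FiniteDimensional k (Algebra.adjoin k {a, b}) := by
  obtain ⟨α, β, ha⟩ := ha
  obtain ⟨γ, δ, hb⟩ := hb
  exact fin_of_fg (two_quadratic a b α β γ δ ha hb (halg _).isIntegral)

theorem pair {k : Type u} {A : Type v} [Field k] [Ring A] [Algebra k A] {s t : A}
    (hs : IsQuad k s) (ht : IsQuad k t) (hst : IsQuad k (s + t)) :
    s * t + t * s ∈ span k {1, s, t} := by
  obtain ⟨α, β, hs⟩ := hs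
  obtain ⟨γ, δ, ht⟩ := ht
  obtain ⟨ε, ζ, hst⟩ := hst
  have e : s * t + t * s = (ζ - β - δ) • (1 : A) + (ε - α) • s + (ε - γ) • t := by
    have h1 : s * t + t * s = (s + t) * (s + t) - s * s - t * t := by
      simp only [mul_add, add_mul]; abel
    rw [h1, hst, hs, ht]
    simp only [smul_add, sub_smul]
    abel
  rw [e]
  exact add_mem (add_mem (smul_mem _ _ (subset_span (by simp))) (smul_mem _ _ (subset_span (by simp))))
    (smul_mem _ _ (subset_span (by simp)))

theorem fset {k : Type u} {A : Type v} [Field k] [Ring A] [Algebra k A] (S : Finset A)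
    (h1 : ∀ s ∈ S, IsQuad k s) (h2 : ∀ s ∈ S, ∀ t ∈ S, s ≠ t → IsQuad k (s + t)) :
    FiniteDimensional k (Algebra.adjoin k (S : Set A)) ∧
      Module.finrank k (Algebra.adjoin k (S : Set A)) ≤ 2 ^ S.card := by
  obtain ⟨h3, h4⟩ := finite_set (F := k) S h1 fun s hs t ht hst =>
    pair (h1 s hs) (h1 t ht) (h2 s hs t ht hst)
  exact ⟨fin_of_fg h3, h4⟩

theorem subsp {k : Type u} {A : Type v} [Field k] [Ring A] [Algebra k A] (V : Submodule k A)
    [FiniteDimensional k V] (h : ∀ v ∈ V, IsQuad k v) :
    FiniteDimensional k (Algebra.adjoin k (V : Set A)) ∧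
      Module.finrank k (Algebra.adjoin k (V : Set A)) ≤ 2 ^ Module.finrank k V := by
  classical
  let b := Module.finBasis k V
  let S : Finset A := Finset.univ.image fun i => (b i : A)
  have hS : (S : Set A) = V.subtype '' Set.range b := by
    ext x
    simp [S]
  have hspan : span k (S : Set A) = V := by
    rw [hS, ← Submodule.map_span, b.span_eq, Submodule.map_top, Submodule.range_subtype]
  have hmem : ∀ s ∈ S, s ∈ V := by
    intro s hs
    have : s ∈ span k (S : Set A) := subset_span hs
    rwa [hspan] at this
  obtain ⟨h1, h2⟩ := fset (k := k) S (fun s hs => h s (hmem s hs))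
    (fun s hs t ht _ => h _ (V.add_mem (hmem s hs) (hmem t ht)))
  have hadj : Algebra.adjoin k (V : Set A) = Algebra.adjoin k (S : Set A) := by
    conv_lhs => rw [← hspan]
    exact Algebra.adjoin_span k
  have hcard : S.card ≤ Module.finrank k V := by
    calc S.card ≤ (Finset.univ : Finset (Fin (Module.finrank k V))).card := Finset.card_image_le
      _ = _ := by simp
  rw [hadj]
  exact ⟨h1, h2.trans (Nat.pow_le_pow_right (by norm_num) hcard)⟩

/-- if `D` is algebraic over `k`, two elements of degree at most two generate a finite-dimensional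
`k`-algebra -/
def TwoGenerators (k : Type u) (D : Type v) [Field k] [DivisionRing D] [Algebra k D] : Prop :=
  (∀ x : D, IsAlgebraic k x) → ∀ a b : D, IsQuad k a → IsQuad k b →
    FiniteDimensional k (Algebra.adjoin k {a, b})

/-- finite sets, all of whose elements and pair sums have degree at most two -/
def FiniteSets (k : Type u) (D : Type v) [Field k] [DivisionRing D] [Algebra k D] : Prop :=
  ∀ S : Finset D, (∀ s ∈ S, IsQuad k s) → (∀ s ∈ S, ∀ t ∈ S, s ≠ t → IsQuad k (s + t)) →
    FiniteDimensional k (Algebra.adjoin k (S : Set D)) ∧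
      Module.finrank k (Algebra.adjoin k (S : Set D)) ≤ 2 ^ S.card

/-- finite-dimensional subspaces of elements of degree at most two -/
def Subspaces (k : Type u) (D : Type v) [Field k] [DivisionRing D] [Algebra k D] : Prop :=
  ∀ V : Submodule k D, FiniteDimensional k V → (∀ v ∈ V, IsQuad k v) →
    FiniteDimensional k (Algebra.adjoin k (V : Set D)) ∧
      Module.finrank k (Algebra.adjoin k (V : Set D)) ≤ 2 ^ Module.finrank k V

/-- Kurosh's problem for generators of degree at most two: (1) if the division ring `D` is algebraic
over the central subfield `k`, two elements of degree at most two generate a finite-dimensional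
`k`-algebra; in particular this holds over the center of `D`; (2) a finite set, all of whose elements
and pair sums have degree at most two, generates an algebra of dimension at most `2 ^ |S|`; (3) a
finite-dimensional subspace of elements of degree at most two generates an algebra of dimension at
most `2 ^ dim V`. -/
theorem result (D : Type v) [DivisionRing D] :
    TwoGenerators (Subring.center D) D ∧
    ∀ (k : Type u) [Field k] [Algebra k D],
      TwoGenerators k D ∧ FiniteSets k D ∧ Subspaces k D :=
  ⟨fun halg a b ha hb => two halg a b ha hb, fun _ _ _ =>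
    ⟨fun halg a b ha hb => two halg a b ha hb, fun S h1 h2 => fset S h1 h2,
      fun V _ h => subsp V h⟩⟩

end Vale.Agent.Results.P199.Quadratic
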